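import Vale.Agent.P189.Main

namespace Vale.Agent.Results.P189.NoFixedPrice

open Vale.Agent.P189

theorem result : ∃ (G : Type) (_ : Group G) (_ : Countable G) (a b : PmpAction G),
    a.EssFree ∧ b.EssFree ∧ a.cost ≠ b.cost := by
  obtain ⟨G, i, j, a, b, h1, h2, h3, h4⟩ := main
  exact ⟨G, i, j, a, b, h1, h2, h4 ▸ h3.ne⟩

end Vale.Agent.Results.P189.NoFixedPrice
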